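import Vale.Agent.P254.S.Final
import Vale.Agent.P254.Final

namespace Vale.Agent.Results.P254.Combined

open Vale.Agent.P254

/-- The strong isotropic constant conjecture for centrally symmetric bodies in dimension `n ≥ 23`
(with the bound `0.3592` in every dimension), and near the simplex in every dimension. -/
theorem result (n : ℕ) (hn : 1 ≤ n) :
    (∀ (K : Set (Fin n → ℝ)) (c : Fin n → ℝ), IsBody K → (∀ x ∈ K, c + c - x ∈ K) →
      isoConst K ≤ 3592 / 10000 ∧
        (23 ≤ n → ∀ S : Set (Fin n → ℝ), IsSimplex S → isoConst K < isoConst S)) ∧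
    ∃ ε : ℝ, 0 < ε ∧
      ∀ (S K : Set (Fin n → ℝ)) (z : Fin n → ℝ), IsSimplex S → IsBody K → z ∈ S → S ⊆ K →
        K ⊆ (fun x => z + (1 + ε) • (x - z)) '' S →
        isoConst K ≤ isoConst S ∧ (isoConst K = isoConst S → IsSimplex K) :=
  ⟨fun _ _ hK hs => S.final hn hK hs, local_max hn⟩

end Vale.Agent.Results.P254.Combined
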