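import Vale.Agent.P254.Final

open Set

namespace Vale.Agent.Results.P254.LocalMax

open Vale.Agent.P254

/-- In every dimension the simplex is a strict local maximizer of the isotropic constant
(neighbourhoods in the Banach-Mazur sense). -/
theorem result (n : ℕ) (hn : 1 ≤ n) : ∃ ε : ℝ, 0 < ε ∧
    ∀ (S K : Set (Fin n → ℝ)) (z : Fin n → ℝ), IsSimplex S → IsBody K → z ∈ S → S ⊆ K →
      K ⊆ (fun x => z + (1 + ε) • (x - z)) '' S →
      isoConst K ≤ isoConst S ∧ (isoConst K = isoConst S → IsSimplex K) :=
  local_max hn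

end Vale.Agent.Results.P254.LocalMax
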