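import Vale.Agent.P254.S.Final

namespace Vale.Agent.Results.P254.Symmetric

open Vale.Agent.P254

/-- Centrally symmetric convex bodies have isotropic constant at most `0.3592` in every dimension,
and strictly less than that of the simplex in every dimension `n ≥ 23`. -/
theorem result (n : ℕ) (hn : 1 ≤ n) (K : Set (Fin n → ℝ)) (hK : IsBody K) (c : Fin n → ℝ)
    (hs : ∀ x ∈ K, c + c - x ∈ K) :
    isoConst K ≤ 3592 / 10000 ∧
      (23 ≤ n → ∀ S : Set (Fin n → ℝ), IsSimplex S → isoConst K < isoConst S) :=
  S.final hn hK hs

end Vale.Agent.Results.P254.Symmetric
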